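import Vale.Agent.P356.B.Final
import Vale.Agent.P356.Final

namespace Vale.Agent.Results.P356.A_both

open Vale.Agent.P356

theorem result (q R : ℕ) (hq : 2 ≤ q) (J Δ : ℝ) (hJ : 0 < J) (hΔ : 0 < Δ) :
    ∃ γ C : ℝ, 0 < γ ∧ ∀ (L : ℕ), 2 ≤ L →
      ∀ (h : Finset (Site L) → Matrix (Conf L q) (Conf L q) ℂ) (Ω : Conf L q → ℂ),
        Admissible R J h → GappedGround (∑ X, h X) Δ Ω → FrustrationFree h Ω →
        ∀ A : Finset (Site L), entropy A Ω ≤ C * ((bdry A : ℝ) + 1) ^ (2 - γ) ∧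
          (LocalGap h Δ Ω →
            entropy A Ω ≤ C * ((bdry A : ℝ) + 1) * Real.log ((bdry A : ℝ) + 2) ^ 77) := by
  obtain ⟨γ, C₁, hγ, h1⟩ := main q R hq J Δ hJ hΔ
  obtain ⟨C₂, h2⟩ := main_b q R hq J Δ hJ hΔ
  refine ⟨γ, max C₁ C₂, hγ, fun L hL h Ω ha hg hf A => ⟨?_, fun hl => ?_⟩⟩
  · exact (h1 L hL h Ω ha hg hf A).trans
      (mul_le_mul_of_nonneg_right (le_max_left _ _) (by positivity))
  · have h3 : 0 ≤ Real.log ((bdry A : ℝ) + 2) :=
      Real.log_nonneg (by linarith [Nat.cast_nonneg (α := ℝ) (bdry A)])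
    exact (h2 L hL h Ω ha hg hf hl A).trans (mul_le_mul_of_nonneg_right
      (mul_le_mul_of_nonneg_right (le_max_right _ _) (by positivity)) (by positivity))

end Vale.Agent.Results.P356.A_both
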