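import Vale.Agent.P356.Final

namespace Vale.Agent.Results.P356.SubvolumeFF

open Vale.Agent.P356

theorem result (q R : ℕ) (hq : 2 ≤ q) (J Δ : ℝ) (hJ : 0 < J) (hΔ : 0 < Δ) :
    ∃ γ C : ℝ, 0 < γ ∧ ∀ (L : ℕ), 2 ≤ L →
      ∀ (h : Finset (Site L) → Matrix (Conf L q) (Conf L q) ℂ) (Ω : Conf L q → ℂ),
        Admissible R J h → GappedGround (∑ X, h X) Δ Ω → FrustrationFree h Ω →
        ∀ A : Finset (Site L), entropy A Ω ≤ C * ((bdry A : ℝ) + 1) ^ (2 - γ) :=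
  main q R hq J Δ hJ hΔ

end Vale.Agent.Results.P356.SubvolumeFF
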